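import Vale.Agent.P183.H552.Grp
import Mathlib.Data.ZMod.Basic

/-!
The overgroups, in `SL(2, 7)`, of the normaliser of the diagonal subgroup of order three: two
groups of order `48` and the whole group.
-/

set_option autoImplicit false

namespace Vale.Agent.P183.H552

open SL

namespace Oct7

instance fact7 : Fact (Nat.Prime 7) := ⟨by norm_num⟩

/-- Monomial matrices. -/
def Mn (g : SL (ZMod 7)) : Prop := (g.q = 0 ∧ g.r = 0) ∨ (g.p = 0 ∧ g.s = 0)

/-- The diagonal element of order three. -/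
def d7 : SL (ZMod 7) := ⟨2, 0, 0, 4, by decide⟩

/-- The antidiagonal element of order four. -/
def w7 : SL (ZMod 7) := ⟨0, 1, -1, 0, by decide⟩

/-- The additional generators. -/
def s7 (e : Bool) : SL (ZMod 7) :=
  ⟨1, if e then 1 else -1, if e then 2 else -2, 3, by cases e <;> decide⟩

/-- The two subgroups of order `48`. -/
def octa7 (e : Bool) : Subgroup (SL (ZMod 7)) := Subgroup.closure {d7, w7, s7 e}

/-- The elements of `octa7 e`. -/
def PO (e : Bool) (p q r s : ZMod 7) : Prop :=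
  (q = 0 ∧ r = 0) ∨ (p = 0 ∧ s = 0) ∨ (q * r = 2 ∧ (p * q) ^ 3 = if e then 1 else -1) ∨
    (q * r = 4 ∧ (p * q) ^ 3 = if e then -1 else 1)

instance (e : Bool) (p q r s : ZMod 7) : Decidable (PO e p q r s) := by
  unfold PO; infer_instance

theorem po_d : ∀ e : Bool, ∀ p q r s : ZMod 7, p * s - q * r = 1 → PO e p q r s →
    PO e (2 * p) (2 * q) (4 * r) (4 * s) ∧ PO e (4 * p) (4 * q) (2 * r) (2 * s) := by
  decide +kernel

theorem po_w : ∀ e : Bool, ∀ p q r s : ZMod 7, p * s - q * r = 1 → PO e p q r s →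
    PO e r s (-p) (-q) ∧ PO e (-r) (-s) p q := by
  decide +kernel

theorem po_t : ∀ p q r s : ZMod 7, p * s - q * r = 1 → PO true p q r s →
    PO true (p + r) (q + s) (2 * p + 3 * r) (2 * q + 3 * s) ∧
      PO true (3 * p - r) (3 * q - s) (-2 * p + r) (-2 * q + s) := by
  decide +kernel

theorem po_f : ∀ p q r s : ZMod 7, p * s - q * r = 1 → PO false p q r s →
    PO false (p - r) (q - s) (-2 * p + 3 * r) (-2 * q + 3 * s) ∧
      PO false (3 * p + r) (3 * q + s) (2 * p + r) (2 * q + s) := by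
  decide +kernel

theorem po_of_mem {e : Bool} {g : SL (ZMod 7)} (hg : g ∈ octa7 e) : PO e g.p g.q g.r g.s := by
  refine Subgroup.closure_induction_left (p := fun g _ => PO e g.p g.q g.r g.s) ?_ ?_ ?_ hg
  · exact Or.inl ⟨rfl, rfl⟩
  · rintro x (rfl | rfl | rfl) y _ hy
    · have h := (po_d e _ _ _ _ y.det hy).1
      simpa [d7] using h
    · have h := (po_w e _ _ _ _ y.det hy).1
      simpa [w7] using h
    · cases e
      · have h := (po_f _ _ _ _ y.det hy).1
        simpa [s7, sub_eq_add_neg] using h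
      · have h := (po_t _ _ _ _ y.det hy).1
        simpa [s7] using h
  · rintro x (rfl | rfl | rfl) y _ hy
    · have h := (po_d e _ _ _ _ y.det hy).2
      simpa [d7] using h
    · have h := (po_w e _ _ _ _ y.det hy).2
      simpa [w7] using h
    · cases e
      · have h := (po_f _ _ _ _ y.det hy).2
        simpa [s7, sub_eq_add_neg] using h
      · have h := (po_t _ _ _ _ y.det hy).2
        simpa [s7, sub_eq_add_neg] using h

theorem s7_mem (e : Bool) : s7 e ∈ octa7 e :=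
  Subgroup.subset_closure (Or.inr (Or.inr rfl))

theorem d7_mem (e : Bool) : d7 ∈ octa7 e := Subgroup.subset_closure (Or.inl rfl)

theorem w7_mem (e : Bool) : w7 ∈ octa7 e := Subgroup.subset_closure (Or.inr (Or.inl rfl))

theorem s7_not_mem (e : Bool) : s7 (!e) ∉ octa7 e := by
  intro h
  have h1 := po_of_mem h
  revert h1
  cases e <;> decide +kernel

theorem up_not_mem (e : Bool) : (up 1 : SL (ZMod 7)) ∉ octa7 e := by
  intro h
  have h1 := po_of_mem h
  simp only [up_p, up_q, up_r, up_s] at h1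
  revert h1
  cases e <;> decide +kernel

theorem octa7_ne_top (e : Bool) : octa7 e ≠ ⊤ := by
  intro h
  exact up_not_mem e (by rw [h]; trivial)

/-- The monomial matrices are products of powers of the two generators. -/
theorem mon7 : ∀ p q r s : ZMod 7, ∀ h : p * s - q * r = 1,
    ((q = 0 ∧ r = 0) ∨ (p = 0 ∧ s = 0)) → ∃ a : Fin 3, ∃ b : Fin 4,
      (⟨p, q, r, s, h⟩ : SL (ZMod 7)) = d7 ^ (a : ℕ) * w7 ^ (b : ℕ) := by
  decide +kernel

variable {K : Subgroup (SL (ZMod 7))}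

theorem mem_of_Mn (hd : d7 ∈ K) (hw : w7 ∈ K) {g : SL (ZMod 7)} (hg : Mn g) : g ∈ K := by
  obtain ⟨p, q, r, s, h⟩ := g
  obtain ⟨a, b, hab⟩ := mon7 p q r s h hg
  rw [hab]
  exact K.mul_mem (K.pow_mem hd _) (K.pow_mem hw _)

theorem up_pow (z : ZMod 7) (n : ℕ) : (up z) ^ n = up ((n : ZMod 7) * z) := by
  induction n with
  | zero => ext <;> simp
  | succ n ih =>
    rw [pow_succ, ih]
    ext <;> simp
    ring

/-- Triangular case. -/
theorem top_of_r (hd : d7 ∈ K) (hw : w7 ∈ K) {g : SL (ZMod 7)} (hg : g ∈ K) (hr : g.r = 0)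
    (hq : g.q ≠ 0) : K = ⊤ := by
  have hps : g.p * g.s = 1 := by rw [← g.det, hr]; ring
  have hp : g.p ≠ 0 := left_ne_zero_of_mul_eq_one hps
  have h1 : up (g.q / g.p) ∈ K := by
    have h2 : (⟨g.p, 0, 0, g.s, by rw [hps]; ring⟩ : SL (ZMod 7))⁻¹ * g = up (g.q / g.p) := by
      have h4 : g.s = 1 / g.p := by field_simp; rw [mul_comm]; exact hps
      ext
      · simp; rw [mul_comm]; exact hps
      · simp only [mul_q, inv_p, inv_q, up_q, neg_zero, zero_mul, add_zero]
        rw [h4]; ring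
      · simp [hr]
      · simp [hps]
    rw [← h2]
    exact K.mul_mem (K.inv_mem (mem_of_Mn hd hw (Or.inl ⟨rfl, rfl⟩))) hg
  have hz : g.q / g.p ≠ 0 := div_ne_zero hq hp
  have h2 : ∀ z, up z ∈ K := by
    intro z
    have h3 : up z = (up (g.q / g.p)) ^ (z / (g.q / g.p)).val := by
      rw [up_pow, ZMod.natCast_zmod_val, div_mul_cancel₀ _ hz]
    rw [h3]
    exact K.pow_mem h1 _
  refine top_of_unip K h2 fun z => ?_
  have h3 : lo z = w7 * up (-z) * w7⁻¹ := by
    ext <;> simp [w7]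
  rw [h3]
  exact K.mul_mem (K.mul_mem hw (h2 _)) (K.inv_mem hw)

theorem top_of_zero (hd : d7 ∈ K) (hw : w7 ∈ K) {g : SL (ZMod 7)} (hg : g ∈ K) (hn : ¬ Mn g)
    (h0 : g.p = 0 ∨ g.q = 0 ∨ g.r = 0 ∨ g.s = 0) : K = ⊤ := by
  rcases h0 with h | h | h | h
  · refine top_of_r hd hw (K.mul_mem hw hg) (by simp [w7, h]) ?_
    intro h1
    exact hn (Or.inr ⟨h, by simpa [w7] using h1⟩)
  · refine top_of_r hd hw (K.mul_mem (K.mul_mem hw hg) (K.inv_mem hw)) (by simp [w7, h]) ?_
    intro h1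
    exact hn (Or.inl ⟨h, by simpa [w7] using h1⟩)
  · exact top_of_r hd hw hg h (fun h1 => hn (Or.inl ⟨h1, h⟩))
  · refine top_of_r hd hw (K.mul_mem hg hw) (by simp [w7, h]) ?_
    intro h1
    exact hn (Or.inr ⟨by simpa [w7] using h1, h⟩)

theorem seven' : (7 : ZMod 7) = 0 := by decide

/-- Conjugates of the diagonal element. -/
theorem top_of_conj (hd : d7 ∈ K) (hw : w7 ∈ K) {g : SL (ZMod 7)} (hg : g ∈ K)
    (hp : g.p ≠ 0) (hq : g.q ≠ 0) (hm : g.q * g.r = 1 ∨ g.q * g.r = 5) : K = ⊤ := by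
  have h1 : g * d7 * g⁻¹ ∈ K := K.mul_mem (K.mul_mem hg hd) (K.inv_mem hg)
  have hdet := g.det
  have e1 : (g * d7 * g⁻¹).p = 2 * (g.p * g.s) - 4 * (g.q * g.r) := by
    simp [d7]; ring
  have e2 : (g * d7 * g⁻¹).q = 2 * (g.p * g.q) := by
    simp [d7]; ring
  have e4 : (g * d7 * g⁻¹).s = 4 * (g.p * g.s) - 2 * (g.q * g.r) := by
    simp [d7]; ring
  have hq' : (g * d7 * g⁻¹).q ≠ 0 := by
    rw [e2]
    exact mul_ne_zero (by decide) (mul_ne_zero hp hq)
  have hn : ¬ Mn (g * d7 * g⁻¹) := by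
    rintro (⟨h, _⟩ | ⟨h, h'⟩)
    · exact hq' h
    · rw [e1] at h
      rw [e4] at h'
      have : (1 : ZMod 7) = 0 := by linear_combination 6 * hdet - h - h' + seven'
      exact absurd this (by decide)
  refine top_of_zero hd hw h1 hn ?_
  rcases hm with hm | hm
  · left
    rw [e1]
    linear_combination 2 * hdet - 2 * hm
  · right; right; right
    rw [e4]
    linear_combination 4 * hdet + 2 * hm + 2 * seven'

theorem top_of_three (hd : d7 ∈ K) (hw : w7 ∈ K) {g : SL (ZMod 7)} (hg : g ∈ K)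
    (hp : g.p ≠ 0) (hq : g.q ≠ 0) (hm : g.q * g.r = 3) : K = ⊤ := by
  have h1 : g * d7 * g⁻¹ ∈ K := K.mul_mem (K.mul_mem hg hd) (K.inv_mem hg)
  have hdet := g.det
  have e1 : (g * d7 * g⁻¹).p = 2 * (g.p * g.s) - 4 * (g.q * g.r) := by
    simp [d7]; ring
  have e2 : (g * d7 * g⁻¹).q = 2 * (g.p * g.q) := by
    simp [d7]; ring
  have e3 : (g * d7 * g⁻¹).r = -2 * (g.r * g.s) := by
    simp [d7]; ring
  have hq' : (g * d7 * g⁻¹).q ≠ 0 := by
    rw [e2]
    exact mul_ne_zero (by decide) (mul_ne_zero hp hq)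
  have hp' : (g * d7 * g⁻¹).p ≠ 0 := by
    rw [e1]
    intro h
    have : (3 : ZMod 7) = 0 := by linear_combination h - 2 * hdet + 2 * hm + seven'
    exact absurd this (by decide)
  refine top_of_conj hd hw h1 hp' hq' (Or.inl ?_)
  rw [e2, e3]
  linear_combination (-4 * g.q * g.r) * hdet - 4 * (g.q * g.r + 4) * hm - 7 * seven'

/-- The elements with `q r = 2` are equivalent to one of the two generators. -/
theorem two_red : ∀ p q r s : ZMod 7, p * s - q * r = 1 → q * r = 2 →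
    ∃ x x' : ZMod 7, x * x' = 1 ∧ ∃ y y' : ZMod 7, y * y' = 1 ∧ x * p * y = 1 ∧
      x' * s * y' = 3 ∧ ((x * q * y' = 1 ∧ x' * r * y = 2) ∨
        (x * q * y' = -1 ∧ x' * r * y = -2)) := by
  decide +kernel

/-- The subgroup of monomial matrices. -/
def M7 : Subgroup (SL (ZMod 7)) := Subgroup.closure {d7, w7}

theorem mem_M7 {g : SL (ZMod 7)} (hg : Mn g) : g ∈ M7 :=
  mem_of_Mn (Subgroup.subset_closure (Or.inl rfl)) (Subgroup.subset_closure (Or.inr rfl)) hg

theorem two_red' {g : SL (ZMod 7)} (h : g.q * g.r = 2) :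
    ∃ e : Bool, ∃ x ∈ M7, ∃ y ∈ M7, x * g * y = s7 e := by
  obtain ⟨x, x', hx, y, y', hy, h1, h2, h3⟩ := two_red _ _ _ _ g.det h
  have hX : (⟨x, 0, 0, x', by rw [hx]; ring⟩ : SL (ZMod 7)) ∈ M7 := mem_M7 (Or.inl ⟨rfl, rfl⟩)
  have hY : (⟨y, 0, 0, y', by rw [hy]; ring⟩ : SL (ZMod 7)) ∈ M7 := mem_M7 (Or.inl ⟨rfl, rfl⟩)
  rcases h3 with ⟨h3, h4⟩ | ⟨h3, h4⟩
  · refine ⟨true, _, hX, _, hY, ?_⟩
    ext <;> simp [s7, h1, h2, h3, h4]
  · refine ⟨false, _, hX, _, hY, ?_⟩
    ext <;> simp [s7, h1, h2, h3, h4]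

theorem four_red {g : SL (ZMod 7)} (h : g.q * g.r = 4) :
    ∃ e : Bool, ∃ x ∈ M7, ∃ y ∈ M7, x * g * y = s7 e := by
  have h1 : (g * w7).q * (g * w7).r = 2 := by
    simp [w7]
    linear_combination -g.det - h - seven'
  obtain ⟨e, x, hx, y, hy, h2⟩ := two_red' h1
  refine ⟨e, x, hx, w7 * y, M7.mul_mem (mem_M7 (Or.inr ⟨rfl, rfl⟩)) hy, ?_⟩
  rw [← h2]
  simp only [mul_assoc]

theorem val7 : ∀ z : ZMod 7, z = 0 ∨ z = 1 ∨ z = 2 ∨ z = 3 ∨ z = 4 ∨ z = 5 ∨ z = -1 := by
  decide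

/-- Every element outside the monomial matrices generates, with the monomial matrices, the whole
group, or it is equivalent to one of the two additional generators. -/
theorem cases7 (hd : d7 ∈ K) (hw : w7 ∈ K) {g : SL (ZMod 7)} (hg : g ∈ K) (hn : ¬ Mn g) :
    K = ⊤ ∨ ∃ e : Bool, ∃ x ∈ M7, ∃ y ∈ M7, x * g * y = s7 e := by
  by_cases hp : g.p = 0
  · exact Or.inl (top_of_zero hd hw hg hn (Or.inl hp))
  by_cases hq : g.q = 0
  · exact Or.inl (top_of_zero hd hw hg hn (Or.inr (Or.inl hq)))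
  by_cases hr : g.r = 0
  · exact Or.inl (top_of_zero hd hw hg hn (Or.inr (Or.inr (Or.inl hr))))
  by_cases hs : g.s = 0
  · exact Or.inl (top_of_zero hd hw hg hn (Or.inr (Or.inr (Or.inr hs))))
  have hdet := g.det
  rcases val7 (g.q * g.r) with h | h | h | h | h | h | h
  · exact absurd h (mul_ne_zero hq hr)
  · exact Or.inl (top_of_conj hd hw hg hp hq (Or.inl h))
  · exact Or.inr (two_red' h)
  · exact Or.inl (top_of_three hd hw hg hp hq h)
  · exact Or.inr (four_red h)
  · exact Or.inl (top_of_conj hd hw hg hp hq (Or.inr h))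
  · exfalso
    exact mul_ne_zero hp hs (by linear_combination hdet + h)

theorem top_of_both (hd : d7 ∈ K) (hw : w7 ∈ K) (h1 : s7 true ∈ K) (h2 : s7 false ∈ K) :
    K = ⊤ := by
  refine top_of_zero hd hw (K.mul_mem h1 h2) ?_ (Or.inr (Or.inr (Or.inr (by decide))))
  unfold Mn
  decide

/-- The overgroups of the monomial subgroup of `SL(2, 7)`. -/
theorem cls7 (hd : d7 ∈ K) (hw : w7 ∈ K) (hN : ∃ g ∈ K, ¬ Mn g) :
    K = octa7 true ∨ K = octa7 false ∨ K = ⊤ := by
  have hM : M7 ≤ K := by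
    refine (Subgroup.closure_le _).2 ?_
    rintro x (rfl | rfl)
    · exact hd
    · exact hw
  by_cases hK : K = ⊤
  · exact Or.inr (Or.inr hK)
  have hs : ∀ e : Bool, s7 e ∈ K → s7 (!e) ∉ K := by
    intro e h1 h2
    cases e
    · exact hK (top_of_both hd hw h2 h1)
    · exact hK (top_of_both hd hw h1 h2)
  have key : ∀ e : Bool, s7 e ∈ K → K = octa7 e := by
    intro e he
    have hMe : M7 ≤ octa7 e := by
      refine (Subgroup.closure_le _).2 ?_
      rintro x (rfl | rfl)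
      · exact d7_mem e
      · exact w7_mem e
    apply le_antisymm
    · intro g hg
      by_cases hm : Mn g
      · exact hMe (mem_M7 hm)
      · rcases cases7 hd hw hg hm with h | ⟨e', x, hx, y, hy, h⟩
        · exact absurd h hK
        have h1 : s7 e' ∈ K := by
          rw [← h]
          exact K.mul_mem (K.mul_mem (hM hx) hg) (hM hy)
        have h2 : e' = e := by
          by_contra hne
          have h3 : e' = !e := by revert hne; cases e <;> cases e' <;> simp
          rw [h3] at h1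
          exact hs e he h1
        rw [h2] at h
        have h4 : g = x⁻¹ * s7 e * y⁻¹ := by
          rw [← h]; group
        rw [h4]
        exact (octa7 e).mul_mem ((octa7 e).mul_mem ((octa7 e).inv_mem (hMe hx)) (s7_mem e))
          ((octa7 e).inv_mem (hMe hy))
    · refine (Subgroup.closure_le _).2 ?_
      rintro x (rfl | rfl | rfl)
      · exact hd
      · exact hw
      · exact he
  obtain ⟨g, hg, hn⟩ := hN
  rcases cases7 hd hw hg hn with h | ⟨e, x, hx, y, hy, h⟩
  · exact absurd h hK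
  have h1 : s7 e ∈ K := by
    rw [← h]
    exact K.mul_mem (K.mul_mem (hM hx) hg) (hM hy)
  have h2 := key e h1
  cases e
  · exact Or.inr (Or.inl h2)
  · exact Or.inl h2

end Oct7

end Vale.Agent.P183.H552
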