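import Vale.Agent.P183.H2.Prm
import Vale.Agent.P183.H2.Oct7

/-!
The subgroups of `SL(2, 343)` between the normaliser, in `SL(2, 7)`, of the diagonal subgroup of
order three, and `SL(2, 7)`.
-/

set_option autoImplicit false

namespace Vale.Agent.P183.H552

open SL Oct7

/-- The inclusion of the prime field. -/
def io (z : ZMod 7) : Q := ⟨z, 0, 0⟩

theorem io_add (x y : ZMod 7) : io (x + y) = io x + io y := by ext <;> simp [io]
theorem io_neg (x : ZMod 7) : io (-x) = -io x := by ext <;> simp [io]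
theorem io_sub (x y : ZMod 7) : io (x - y) = io x - io y := by ext <;> simp [io]
theorem io_mul (x y : ZMod 7) : io (x * y) = io x * io y := by ext <;> simp [io]
theorem io_one : io 1 = 1 := rfl
theorem io_zero : io 0 = 0 := rfl

theorem io_inj {x y : ZMod 7} (h : io x = io y) : x = y := congrArg Q.a h

theorem Pm.io {z : Q} (h : Pm z) : Vale.Agent.P183.H552.io z.a = z := by
  ext
  · rfl
  · exact h.1.symm
  · exact h.2.symm

theorem io_pm (z : ZMod 7) : Pm (io z) := ⟨rfl, rfl⟩

/-- The embedding of `SL(2, 7)`. -/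
def emb : SL (ZMod 7) →* SL Q where
  toFun g := ⟨io g.p, io g.q, io g.r, io g.s, by
    rw [← io_mul, ← io_mul, ← io_sub, g.det, io_one]⟩
  map_one' := by ext1 <;> rfl
  map_mul' x y := by
    ext1 <;> simp only [mul_p, mul_q, mul_r, mul_s, io_add, io_mul]

theorem emb_inj : Function.Injective emb := by
  intro x y h
  ext1
  · exact io_inj (congrArg SL.p h)
  · exact io_inj (congrArg SL.q h)
  · exact io_inj (congrArg SL.r h)
  · exact io_inj (congrArg SL.s h)

theorem emb_mem (g : SL (ZMod 7)) : emb g ∈ prm := ⟨io_pm _, io_pm _, io_pm _, io_pm _⟩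

theorem exists_emb {g : SL Q} (hg : g ∈ prm) : ∃ x, emb x = g := by
  obtain ⟨h1, h2, h3, h4⟩ := hg
  refine ⟨⟨g.p.a, g.q.a, g.r.a, g.s.a, ?_⟩, ?_⟩
  · apply io_inj
    rw [io_sub, io_mul, io_mul, h1.io, h2.io, h3.io, h4.io, g.det, io_one]
  · ext1
    · exact h1.io
    · exact h2.io
    · exact h3.io
    · exact h4.io

theorem map_comap {K : Subgroup (SL Q)} (h : K ≤ prm) : (K.comap emb).map emb = K := by
  apply le_antisymm
  · exact Subgroup.map_comap_le _ _
  · intro g hg
    obtain ⟨x, rfl⟩ := exists_emb (h hg)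
    exact Subgroup.mem_map_of_mem _ hg

theorem map_top : (⊤ : Subgroup (SL (ZMod 7))).map emb = prm := by
  apply le_antisymm
  · rintro _ ⟨x, _, rfl⟩
    exact emb_mem x
  · intro g hg
    obtain ⟨x, rfl⟩ := exists_emb hg
    exact Subgroup.mem_map_of_mem _ trivial

theorem emb_mon {g : SL (ZMod 7)} : Mon (emb g) ↔ Mn g := by
  have h0 : ∀ z, io z = 0 ↔ z = 0 := fun z => ⟨fun h => io_inj h, fun h => by rw [h]; rfl⟩
  show (io g.q = 0 ∧ io g.r = 0) ∨ (io g.p = 0 ∧ io g.s = 0) ↔ _
  simp only [h0, Mn]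

theorem emb_d : emb d7 = dd := by decide +kernel
theorem emb_w : emb w7 = ww := by decide +kernel

/-- The two subgroups of order `48`. -/
def octa (e : Bool) : Subgroup (SL Q) := (octa7 e).map emb

/-- The distinguished elements of these subgroups. -/
def yy (e : Bool) : SL Q := emb (s7 e)

theorem emb_mem_octa {e : Bool} {g : SL (ZMod 7)} : emb g ∈ octa e ↔ g ∈ octa7 e := by
  constructor
  · rintro ⟨x, hx, h⟩
    rwa [← emb_inj h]
  · exact fun h => Subgroup.mem_map_of_mem _ h

theorem yy_mem (e : Bool) : yy e ∈ octa e := emb_mem_octa.2 (s7_mem e)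

theorem yy_not_mem (e : Bool) : yy (!e) ∉ octa e := fun h => s7_not_mem e (emb_mem_octa.1 h)

theorem yy_not_mon (e : Bool) : ¬ Mon (yy e) := by
  rw [yy, emb_mon, Mn]
  cases e <;> decide

theorem emb_up : emb (up 1) = up 1 := by decide +kernel

theorem up_one_mem : (up 1 : SL Q) ∈ prm := emb_up ▸ emb_mem _

theorem up_one_not_mem (e : Bool) : (up 1 : SL Q) ∉ octa e := by
  intro h
  rw [← emb_up] at h
  exact up_not_mem e (emb_mem_octa.1 h)

theorem up_one_not_mon : ¬ Mon (up 1 : SL Q) := by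
  rw [← emb_up, emb_mon, Mn]
  decide

theorem octa_le (e : Bool) : octa e ≤ prm := by
  rintro _ ⟨x, _, rfl⟩
  exact emb_mem x

theorem octa_inj {e e' : Bool} (h : octa e ≤ octa e') : e = e' := by
  by_contra hne
  have h3 : e' = !e := by revert hne; cases e <;> cases e' <;> simp
  rw [h3] at h
  have h4 := h (yy_mem e)
  have h5 := yy_not_mem (!e)
  rw [Bool.not_not] at h5
  exact h5 h4

theorem octa_not_le {e e' : Bool} (h : e ≠ e') : ¬ octa e ≤ octa e' := fun h1 => h (octa_inj h1)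

theorem pm_of_pow : ∀ z : Q, z ^ 6 = 1 → Pm z := by decide +kernel

theorem mono_three_prm : mono 3 ≤ prm := by
  intro g hg
  have hdet := g.det
  rcases hg with ⟨h1, h2, h3⟩ | ⟨h1, h2, h3⟩
  · have k1 : Pm g.p := pm_of_pow _ h3
    have hps : g.p * g.s = 1 := by rw [← hdet, h1]; ring
    have hp : g.p ≠ 0 := left_ne_zero_of_mul_eq_one hps
    exact ⟨k1, h1 ▸ Pm.zero, h2 ▸ Pm.zero, pm2 hp k1 (hps ▸ Pm.one)⟩
  · have k1 : Pm g.q := pm_of_pow _ h3
    have hqr : g.q * g.r = -1 := by linear_combination h1 * g.s - hdet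
    have hq : g.q ≠ 0 := by
      intro h
      rw [h, zero_mul] at hqr
      exact absurd hqr (by decide)
    exact ⟨h1 ▸ Pm.zero, k1, pm2 hq k1 (hqr ▸ Pm.one.neg), h2 ▸ Pm.zero⟩

/-- The smallest monomial group is generated by the two elements `dd` and `ww`. -/
theorem mono_three_le {K : Subgroup (SL Q)} (hd : dd ∈ K) (hw : ww ∈ K) : mono 3 ≤ K := by
  intro g hg
  obtain ⟨x, rfl⟩ := exists_emb (mono_three_prm hg)
  have hm : Mn x := by
    rw [← emb_mon]
    rcases hg with ⟨h1, h2, _⟩ | ⟨h1, h2, _⟩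
    · exact Or.inl ⟨h1, h2⟩
    · exact Or.inr ⟨h1, h2⟩
  have h1 : x ∈ K.comap emb := by
    refine mem_of_Mn ?_ ?_ hm
    · rw [Subgroup.mem_comap, emb_d]; exact hd
    · rw [Subgroup.mem_comap, emb_w]; exact hw
  exact h1

theorem mono_three_octa (e : Bool) : mono 3 ≤ octa e := by
  refine mono_three_le ?_ ?_
  · rw [← emb_d]; exact emb_mem_octa.2 (d7_mem e)
  · rw [← emb_w]; exact emb_mem_octa.2 (w7_mem e)

/-- The overgroups of the smallest monomial group in the group of matrices over the prime field. -/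
theorem prm_cls (K : Subgroup (SL Q)) (hH : mono 3 ≤ K) (hP : K ≤ prm)
    (hN : ∃ g ∈ K, ¬ Mon g) : K = octa true ∨ K = octa false ∨ K = prm := by
  have hd : d7 ∈ K.comap emb := by
    rw [Subgroup.mem_comap, emb_d]; exact hH dd_mem
  have hw : w7 ∈ K.comap emb := by
    rw [Subgroup.mem_comap, emb_w]; exact hH ww_mem
  obtain ⟨g, hg, hn⟩ := hN
  obtain ⟨x, rfl⟩ := exists_emb (hP hg)
  rcases cls7 hd hw ⟨x, hg, fun h => hn (emb_mon.2 h)⟩ with h | h | h
  · exact Or.inl (by rw [octa, ← h, map_comap hP])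
  · exact Or.inr (Or.inl (by rw [octa, ← h, map_comap hP]))
  · exact Or.inr (Or.inr (by rw [← map_top, ← h, map_comap hP]))

theorem octa_le_prm (e : Bool) : octa e ≤ prm := octa_le e

theorem mono_le_octa (e : Bool) : mono 3 ≤ octa e := mono_three_octa e

theorem yy_not_mem' (e : Bool) : yy e ∉ octa (!e) := by
  have h := yy_not_mem (!e)
  rwa [Bool.not_not] at h

end Vale.Agent.P183.H552
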