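import Vale.Agent.P183.H552.Defs
import Vale.Agent.P183.H552.Tr

/-!
A subgroup above the normaliser, in `SL(2, 7)`, of the subgroup of order three, all of whose traces
are in the prime field, is monomial or consists of matrices over the prime field.
-/

set_option autoImplicit false

namespace Vale.Agent.P183.H552

open SL

theorem Pm.zero : Pm 0 := ⟨rfl, rfl⟩

theorem Pm.inv {x : Q} (h : Pm x) : Pm x⁻¹ := by
  revert x; decide +kernel

theorem Pm.of_sq {x : Q} (h : Pm (x * x)) : Pm x := by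
  revert x; decide +kernel

theorem Pm.one : Pm 1 := ⟨rfl, rfl⟩

theorem Pm.two : Pm 2 := by decide +kernel

theorem Pm.four : Pm 4 := by decide +kernel

theorem seven : (7 : Q) = 0 := by decide +kernel

/-- `x ∈ F₇` if `2 x ∈ F₇`. -/
theorem Pm.of_two_mul {x : Q} (h : Pm (2 * x)) : Pm x := by
  have h1 : x = 4 * (2 * x) := by linear_combination (-x) * seven
  rw [h1]
  exact Pm.four.mul h

/-- `x ∈ F₇` if `4 x ∈ F₇`. -/
theorem Pm.of_four_mul {x : Q} (h : Pm (4 * x)) : Pm x := by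
  have h1 : x = 2 * (4 * x) := by linear_combination (-x) * seven
  rw [h1]
  exact Pm.two.mul h

theorem pm3 {x y z : Q} (hx : x ≠ 0) (hy : y ≠ 0) (hz : z ≠ 0) (h1 : Pm (x * y)) (h2 : Pm (x * z))
    (h3 : Pm (y * z)) : Pm x := by
  apply Pm.of_sq
  have h4 : x * x = x * y * (x * z) * (y * z)⁻¹ := by field_simp
  rw [h4]
  exact (h1.mul h2).mul h3.inv

theorem pm2 {x y : Q} (hx : x ≠ 0) (h : Pm x) (h1 : Pm (x * y)) : Pm y := by
  have h4 : y = x * y * x⁻¹ := by field_simp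
  rw [h4]
  exact h1.mul h.inv

/-- The diagonal element of order three. -/
def dd : SL Q := ⟨2, 0, 0, 4, by decide +kernel⟩

/-- The antidiagonal element of order four. -/
def ww : SL Q := ⟨0, 1, -1, 0, by decide +kernel⟩

theorem dd_mem : dd ∈ mono 3 := Or.inl ⟨rfl, rfl, by decide +kernel⟩
theorem ww_mem : ww ∈ mono 3 := Or.inr ⟨rfl, rfl, by decide +kernel⟩

theorem tr_dd : tr dd = -1 := by decide +kernel

/-- The product of the off-diagonal entries is in the prime field. -/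
theorem pm_qr (K : Subgroup (SL Q)) (hd : dd ∈ K) (hT : ∀ t, TrS K t → Pm t) {g : SL Q}
    (hg : g ∈ K) : Pm (g.q * g.r) := by
  have h1 : Pm (tr (dd * (g * dd * g⁻¹))) :=
    hT _ ⟨dd, hd, g * dd * g⁻¹, K.mul_mem (K.mul_mem hg hd) (K.inv_mem hg), tr_dd,
      by rw [tr_conj, tr_dd], rfl⟩
  have h2 : tr (dd * (g * dd * g⁻¹)) = 4 * (g.q * g.r) - 1 := by
    obtain ⟨p, q, r, s, hdet⟩ := g
    simp only [tr, mul_p, mul_s, mul_q, mul_r, inv_p, inv_q, inv_r, inv_s, dd]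
    linear_combination 20 * hdet + 3 * seven
  rw [h2] at h1
  apply Pm.of_four_mul
  have h3 : 4 * (g.q * g.r) = 4 * (g.q * g.r) - 1 + 1 := by ring
  rw [h3]
  exact h1.add Pm.one

theorem pm_ps (K : Subgroup (SL Q)) (hd : dd ∈ K) (hT : ∀ t, TrS K t → Pm t) {g : SL Q}
    (hg : g ∈ K) : Pm (g.p * g.s) := by
  have h1 : g.p * g.s = 1 + g.q * g.r := by linear_combination g.det
  rw [h1]
  exact Pm.one.add (pm_qr K hd hT hg)

theorem pm_pr (K : Subgroup (SL Q)) (hd : dd ∈ K) (hw : ww ∈ K) (hT : ∀ t, TrS K t → Pm t)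
    {g : SL Q} (hg : g ∈ K) : Pm (g.p * g.r) ∧ Pm (g.q * g.s) := by
  have h1 := pm_qr K hd hT hg
  have h2 := pm_ps K hd hT hg
  have h3 := pm_qr K hd hT (K.mul_mem (K.mul_mem hg hw) (K.inv_mem hg))
  have h4 : (g * ww * g⁻¹).q * (g * ww * g⁻¹).r =
      -((g.p * g.r) * (g.p * g.r) + (g.q * g.s) * (g.q * g.s) + (g.p * g.s) * (g.p * g.s) +
        (g.q * g.r) * (g.q * g.r)) := by
    simp only [mul_p, mul_s, mul_q, mul_r, inv_p, inv_q, inv_r, inv_s, ww]
    ring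
  rw [h4] at h3
  have h5 : Pm ((g.p * g.r) * (g.p * g.r) + (g.q * g.s) * (g.q * g.s)) := by
    have h6 : (g.p * g.r) * (g.p * g.r) + (g.q * g.s) * (g.q * g.s) =
        -(-((g.p * g.r) * (g.p * g.r) + (g.q * g.s) * (g.q * g.s) + (g.p * g.s) * (g.p * g.s) +
        (g.q * g.r) * (g.q * g.r))) - (g.p * g.s) * (g.p * g.s) - (g.q * g.r) * (g.q * g.r) := by
      ring
    rw [h6]
    exact (h3.neg.sub (h2.mul h2)).sub (h1.mul h1)
  have h7 : Pm (2 * ((g.p * g.s) * (g.q * g.r))) := Pm.two.mul (h2.mul h1)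
  have h8 : Pm (g.p * g.r + g.q * g.s) := by
    apply Pm.of_sq
    have h9 : (g.p * g.r + g.q * g.s) * (g.p * g.r + g.q * g.s) =
        ((g.p * g.r) * (g.p * g.r) + (g.q * g.s) * (g.q * g.s)) +
          2 * ((g.p * g.s) * (g.q * g.r)) := by ring
    rw [h9]
    exact h5.add h7
  have h10 : Pm (g.p * g.r - g.q * g.s) := by
    apply Pm.of_sq
    have h9 : (g.p * g.r - g.q * g.s) * (g.p * g.r - g.q * g.s) =
        ((g.p * g.r) * (g.p * g.r) + (g.q * g.s) * (g.q * g.s)) -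
          2 * ((g.p * g.s) * (g.q * g.r)) := by ring
    rw [h9]
    exact h5.sub h7
  constructor
  · apply Pm.of_two_mul
    have h11 : 2 * (g.p * g.r) = (g.p * g.r + g.q * g.s) + (g.p * g.r - g.q * g.s) := by ring
    rw [h11]
    exact h8.add h10
  · apply Pm.of_two_mul
    have h11 : 2 * (g.q * g.s) = (g.p * g.r + g.q * g.s) - (g.p * g.r - g.q * g.s) := by ring
    rw [h11]
    exact h8.sub h10

theorem pm_pq (K : Subgroup (SL Q)) (hd : dd ∈ K) (hw : ww ∈ K) (hT : ∀ t, TrS K t → Pm t)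
    {g : SL Q} (hg : g ∈ K) : Pm (g.p * g.q) ∧ Pm (g.r * g.s) := by
  obtain ⟨h1, h2⟩ := pm_pr K hd hw hT (K.inv_mem hg)
  simp only [inv_p, inv_q, inv_r, inv_s] at h1 h2
  constructor
  · have h3 : g.p * g.q = -(-g.q * g.p) := by ring
    rw [h3]
    exact h2.neg
  · have h3 : g.r * g.s = -(g.s * -g.r) := by ring
    rw [h3]
    exact h1.neg

theorem prm_of_not_mon (K : Subgroup (SL Q)) (hd : dd ∈ K) (hw : ww ∈ K)
    (hT : ∀ t, TrS K t → Pm t) {g : SL Q} (hg : g ∈ K) (hn : ¬ Mon g) : g ∈ prm := by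
  have h1 := pm_qr K hd hT hg
  have h2 := pm_ps K hd hT hg
  obtain ⟨h3, h4⟩ := pm_pr K hd hw hT hg
  obtain ⟨h5, h6⟩ := pm_pq K hd hw hT hg
  have hdet := g.det
  rw [mem_prm]
  have hc : ∀ {x y : Q}, Pm (x * y) → Pm (y * x) := fun {x y} h => by rwa [mul_comm]
  by_cases hq : g.q = 0
  · have hps : g.p * g.s = 1 := by rw [← hdet, hq]; ring
    have hp : g.p ≠ 0 := left_ne_zero_of_mul_eq_one hps
    have hs : g.s ≠ 0 := right_ne_zero_of_mul_eq_one hps
    have hr : g.r ≠ 0 := fun h => hn (Or.inl ⟨hq, h⟩)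
    have k1 : Pm g.p := pm3 hp hs hr h2 h3 (hc h6)
    exact ⟨k1, by rw [hq]; exact Pm.zero, pm2 hp k1 h3, pm2 hp k1 h2⟩
  · by_cases hr : g.r = 0
    · have hps : g.p * g.s = 1 := by rw [← hdet, hr]; ring
      have hp : g.p ≠ 0 := left_ne_zero_of_mul_eq_one hps
      have hs : g.s ≠ 0 := right_ne_zero_of_mul_eq_one hps
      have k1 : Pm g.p := pm3 hp hs hq h2 h5 (hc h4)
      exact ⟨k1, pm2 hp k1 h5, by rw [hr]; exact Pm.zero, pm2 hp k1 h2⟩
    · by_cases hp : g.p = 0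
      · have hs : g.s ≠ 0 := fun h => hn (Or.inr ⟨hp, h⟩)
        have k1 : Pm g.q := pm3 hq hr hs h1 h4 h6
        exact ⟨by rw [hp]; exact Pm.zero, k1, pm2 hq k1 h1, pm2 hq k1 h4⟩
      · have k1 : Pm g.p := pm3 hp hq hr h5 h3 h1
        exact ⟨k1, pm2 hp k1 h5, pm2 hp k1 h3, pm2 hp k1 h2⟩

theorem Mon.of_mul {g k : SL Q} (hg : Mon g) (h : Mon (g * k)) : Mon k := by
  have hdet := g.det
  rcases hg with ⟨h1, h2⟩ | ⟨h1, h2⟩
  · have hps : g.p * g.s = 1 := by rw [← hdet, h1]; ring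
    have hp : g.p ≠ 0 := left_ne_zero_of_mul_eq_one hps
    have hs : g.s ≠ 0 := right_ne_zero_of_mul_eq_one hps
    simp only [Mon, mul_p, mul_q, mul_r, mul_s, h1, h2, zero_mul, add_zero, zero_add,
      mul_eq_zero, hp, hs, false_or] at h
    exact h
  · have hps : g.q * (-g.r) = 1 := by rw [← hdet, h1]; ring
    have hq : g.q ≠ 0 := left_ne_zero_of_mul_eq_one hps
    have hr : g.r ≠ 0 := fun h => by rw [h] at hps; simp at hps
    simp only [Mon, mul_p, mul_q, mul_r, mul_s, h1, h2, zero_mul, add_zero, zero_add,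
      mul_eq_zero, hq, hr, false_or] at h
    rcases h with ⟨a, b⟩ | ⟨a, b⟩
    · exact Or.inr ⟨b, a⟩
    · exact Or.inl ⟨b, a⟩

theorem prm_of_traces (K : Subgroup (SL Q)) (hH : mono 3 ≤ K) (hT : ∀ t, TrS K t → Pm t)
    (hN : ∃ g ∈ K, ¬ Mon g) : K ≤ prm := by
  have hd := hH dd_mem
  have hw := hH ww_mem
  obtain ⟨k, hk, hkn⟩ := hN
  have hkp := prm_of_not_mon K hd hw hT hk hkn
  intro g hg
  by_cases hm : Mon g
  · have h1 : ¬ Mon (g * k) := fun h => hkn (hm.of_mul h)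
    have h2 := prm_of_not_mon K hd hw hT (K.mul_mem hg hk) h1
    exact (prm.mul_mem_cancel_right hkp).1 h2
  · exact prm_of_not_mon K hd hw hT hg hm

end Vale.Agent.P183.H552
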